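import Vale.Agent.P317.Dist

/-! # P317: the ratio bound -/

namespace Vale.Agent.P317

open Set Matroid

theorem card_small (n D : ℕ) : {X : Set (Fin n) | X.ncard ≤ D}.ncard ≤ (n + 1) ^ D := by
  classical
  let g : (Fin D → Option (Fin n)) → Set (Fin n) := fun φ => {a | ∃ i, φ i = some a}
  have hsub : {X : Set (Fin n) | X.ncard ≤ D} ⊆ g '' univ := by
    intro X hX
    have hX' : X.ncard ≤ D := hX
    obtain ⟨e⟩ : Nonempty (X ≃ Fin X.ncard) := by
      refine ⟨Finite.equivFinOfCardEq ?_⟩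
      exact Nat.card_coe_set_eq X
    refine ⟨fun i => if h : (i : ℕ) < X.ncard then some (e.symm ⟨i, h⟩ : Fin n) else none,
      mem_univ _, ?_⟩
    ext a
    constructor
    · rintro ⟨i, hi⟩
      have hi' : (if h : (i : ℕ) < X.ncard then some (e.symm ⟨i, h⟩ : Fin n) else none) =
        some a := hi
      by_cases h : (i : ℕ) < X.ncard
      · rw [dif_pos h] at hi'
        rw [← Option.some.inj hi']
        exact (e.symm ⟨i, h⟩).2
      · rw [dif_neg h] at hi'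
        exact absurd hi' (by simp)
    · intro ha
      refine ⟨⟨(e ⟨a, ha⟩ : ℕ), (e ⟨a, ha⟩).2.trans_le hX'⟩, ?_⟩
      show (if h : ((e ⟨a, ha⟩ : ℕ)) < X.ncard then
        some (e.symm ⟨(e ⟨a, ha⟩ : ℕ), h⟩ : Fin n) else none) = some a
      rw [dif_pos (e ⟨a, ha⟩).2]
      simp
  calc {X : Set (Fin n) | X.ncard ≤ D}.ncard ≤ (g '' univ).ncard :=
        Set.ncard_le_ncard hsub (Set.toFinite _)
    _ ≤ (univ : Set (Fin D → Option (Fin n))).ncard := Set.ncard_image_le (Set.toFinite _)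
    _ = (n + 1) ^ D := by
        rw [Set.ncard_univ, Nat.card_eq_fintype_card]
        simp

theorem ratio {n r k : ℕ} {M1 M2 : Matroid (Fin n)} (hE1 : M1.E = univ) (hE2 : M2.E = univ)
    (hr2 : ∀ B, M2.IsBase B → B.ncard = r)
    (hk : ∀ I : Set (Fin n), I.ncard + k ≤ r → M2.Indep I)
    (hne : ∃ C, M1.IsBase C ∧ M2.IsBase C) :
    {B : Set (Fin n) | M1.IsBase B}.ncard ≤
      (n + 1) ^ (4 * k) * {B : Set (Fin n) | M1.IsBase B ∧ M2.IsBase B}.ncard := by
  classical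
  let S : Set (Set (Fin n)) := {X : Set (Fin n) | X.ncard ≤ 2 * k}
  let N : Set (Set (Fin n)) := {B : Set (Fin n) | M1.IsBase B ∧ M2.IsBase B}
  let g : Set (Fin n) × Set (Fin n) × Set (Fin n) → Set (Fin n) := fun p => (p.1 \ p.2.1) ∪ p.2.2
  have hsub : {B : Set (Fin n) | M1.IsBase B} ⊆ g '' (N ×ˢ (S ×ˢ S)) := by
    intro B hB
    obtain ⟨C, h1, h2, h3, h4⟩ := dist_le hE1 hE2 hr2 hk hB hne
    refine ⟨(C, C \ B, B \ C), ⟨⟨h1, h2⟩, h3, h4⟩, ?_⟩
    show (C \ (C \ B)) ∪ (B \ C) = B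
    ext z
    simp only [mem_union, mem_sdiff]
    tauto
  have hS := card_small n (2 * k)
  calc {B : Set (Fin n) | M1.IsBase B}.ncard ≤ (g '' (N ×ˢ (S ×ˢ S))).ncard :=
        Set.ncard_le_ncard hsub (Set.toFinite _)
    _ ≤ (N ×ˢ (S ×ˢ S)).ncard := Set.ncard_image_le (Set.toFinite _)
    _ = N.ncard * (S.ncard * S.ncard) := by rw [Set.ncard_prod, Set.ncard_prod]
    _ ≤ N.ncard * ((n + 1) ^ (2 * k) * (n + 1) ^ (2 * k)) :=
        Nat.mul_le_mul_left _ (Nat.mul_le_mul hS hS)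
    _ = (n + 1) ^ (4 * k) * N.ncard := by ring

end Vale.Agent.P317
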