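import Mathlib

/-! # P317: the rejection estimator -/

namespace Vale.Agent.P317

open Finset

/-- Hoeffding's lemma for the centred indicator of a set under the uniform law. -/
theorem est_mgf {Ω : Type*} [Fintype Ω] [DecidableEq Ω] [Nonempty Ω] (A : Finset Ω) (s : ℝ) :
    ∑ w : Ω, Real.exp (s * ((if w ∈ A then (1 : ℝ) else 0) - (A.card : ℝ) / (Fintype.card Ω : ℝ)))
      ≤ (Fintype.card Ω : ℝ) * Real.exp (s ^ 2 / 8) := by
  let _ : MeasurableSpace Ω := ⊤
  have : MeasurableSingletonClass Ω := ⟨fun _ => trivial⟩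
  have hN : (0 : ℝ) < (Fintype.card Ω : ℝ) := by exact_mod_cast Fintype.card_pos
  have hint : ∀ g : Ω → ℝ, ∫ w, g w ∂(PMF.uniformOfFintype Ω).toMeasure
      = (∑ w, g w) / (Fintype.card Ω : ℝ) := by
    intro g
    rw [PMF.integral_eq_sum, Finset.sum_div]
    refine Finset.sum_congr rfl fun w _ => ?_
    rw [PMF.uniformOfFintype_apply, ENNReal.toReal_inv, ENNReal.toReal_natCast, smul_eq_mul]
    ring
  have h := ProbabilityTheory.hasSubgaussianMGF_of_mem_Icc
    (μ := (PMF.uniformOfFintype Ω).toMeasure) (X := fun w => if w ∈ A then (1 : ℝ) else 0)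
    (a := 0) (b := 1) (measurable_of_finite _).aemeasurable
    (Filter.Eventually.of_forall fun w => by
      by_cases hw : w ∈ A <;> simp [hw])
  have h2 := h.mgf_le s
  have hmean : ∫ w, (if w ∈ A then (1 : ℝ) else 0) ∂(PMF.uniformOfFintype Ω).toMeasure
      = (A.card : ℝ) / (Fintype.card Ω : ℝ) := by
    rw [hint]
    congr 1
    simp
  unfold ProbabilityTheory.mgf at h2
  simp only [hmean] at h2
  rw [hint, div_le_iff₀ hN] at h2
  refine h2.trans ?_
  rw [mul_comm]
  refine mul_le_mul_of_nonneg_left (Real.exp_le_exp.2 (le_of_eq ?_)) hN.le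
  norm_num
  ring

/-- the moment generating function of the centred hit counter. -/
theorem est_mgf_pow {Ω : Type*} [Fintype Ω] [DecidableEq Ω] [Nonempty Ω] (A : Finset Ω) (s : ℝ)
    (T : ℕ) :
    ∑ ω : Fin T → Ω, Real.exp (s * (((Finset.univ.filter (fun i => ω i ∈ A)).card : ℝ)
        - (A.card : ℝ) / (Fintype.card Ω : ℝ) * T))
      ≤ (Fintype.card Ω : ℝ) ^ T * Real.exp (T * (s ^ 2 / 8)) := by
  have e : ∀ ω : Fin T → Ω, Real.exp (s * (((Finset.univ.filter (fun i => ω i ∈ A)).card : ℝ)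
        - (A.card : ℝ) / (Fintype.card Ω : ℝ) * T))
      = ∏ i : Fin T, Real.exp (s * ((if ω i ∈ A then (1 : ℝ) else 0)
          - (A.card : ℝ) / (Fintype.card Ω : ℝ))) := by
    intro ω
    rw [← Real.exp_sum]
    congr 1
    rw [← Finset.mul_sum, Finset.sum_sub_distrib, Finset.card_filter]
    push_cast
    rw [Finset.sum_const, Finset.card_univ, Fintype.card_fin, nsmul_eq_mul]
    ring
  rw [Finset.sum_congr rfl fun ω _ => e ω]
  have e2 := (Finset.prod_univ_sum (fun _ : Fin T => (Finset.univ : Finset Ω))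
    (fun _ w => Real.exp (s * ((if w ∈ A then (1 : ℝ) else 0)
          - (A.card : ℝ) / (Fintype.card Ω : ℝ))))).symm
  rw [Fintype.piFinset_univ] at e2
  rw [e2, Finset.prod_const, Finset.card_univ, Fintype.card_fin, Real.exp_nat_mul, ← mul_pow]
  exact pow_le_pow_left₀ (Finset.sum_nonneg fun w _ => (Real.exp_pos _).le) (est_mgf A s) T

/-- Hoeffding for the hit counter of `T` independent uniform samples from `Ω`. -/
theorem estimator {Ω : Type*} [Fintype Ω] [DecidableEq Ω] (A : Finset Ω) (Q : ℝ) (hQ : 1 ≤ Q)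
    (hA : (Fintype.card Ω : ℝ) ≤ Q * (A.card : ℝ)) (ε δ : ℝ) (hε : 0 < ε) (hδ : 0 < δ)
    (T : ℕ) (hT : 0 < T) (hT2 : Q ^ 2 * Real.log (2 / δ) / (2 * ε ^ 2) ≤ (T : ℝ)) :
    ((Finset.univ.filter (fun ω : Fin T → Ω =>
      ε * (A.card : ℝ) <
        |(Fintype.card Ω : ℝ) * ((Finset.univ.filter (fun i => ω i ∈ A)).card : ℝ) / (T : ℝ)
          - (A.card : ℝ)|)).card : ℝ)
      ≤ δ * (Fintype.card Ω : ℝ) ^ T := by
  rcases isEmpty_or_nonempty Ω with hemp | hne
  · have : Nonempty (Fin T) := ⟨⟨0, hT⟩⟩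
    have : (Finset.univ : Finset (Fin T → Ω)) = ∅ := by
      apply Finset.eq_empty_of_forall_notMem
      intro ω
      exact (hemp.false (ω ⟨0, hT⟩)).elim
    rw [this]
    simp only [Finset.filter_empty, Finset.card_empty, Nat.cast_zero]
    positivity
  have hN : (0 : ℝ) < (Fintype.card Ω : ℝ) := by exact_mod_cast Fintype.card_pos
  have hT0 : (0 : ℝ) < (T : ℝ) := by exact_mod_cast hT
  have hQ0 : 0 < Q := by linarith
  have m0 := fun s => est_mgf_pow A s T
  generalize (Fintype.card Ω : ℝ) = N at *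
  obtain ⟨p, hp⟩ : ∃ p : ℝ, p = (A.card : ℝ) / N := ⟨_, rfl⟩
  rw [← hp] at m0
  have hpQ : 1 / Q ≤ p := by
    rw [hp, div_le_div_iff₀ hQ0 hN]
    linarith
  have hp0 : 0 < p := lt_of_lt_of_le (by positivity) hpQ
  have hAp : (A.card : ℝ) = p * N := by
    rw [hp]
    field_simp
  obtain ⟨s, hs⟩ : ∃ s : ℝ, s = 4 * ε * p := ⟨_, rfl⟩
  have hs0 : 0 < s := by
    rw [hs]
    positivity
  -- the bound for each bad `ω`
  let X : (Fin T → Ω) → ℝ := fun ω =>
    ((Finset.univ.filter (fun i => ω i ∈ A)).card : ℝ) - p * T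
  have hbad : ∀ ω ∈ Finset.univ.filter (fun ω : Fin T → Ω =>
      ε * (A.card : ℝ) <
        |N * ((Finset.univ.filter (fun i => ω i ∈ A)).card : ℝ) / (T : ℝ) - (A.card : ℝ)|),
      (1 : ℝ) ≤ Real.exp (-(s * (ε * p * T))) * (Real.exp (s * X ω) + Real.exp (-s * X ω)) := by
    intro ω hω
    rw [Finset.mem_filter] at hω
    have h1 := hω.2
    have e1 : N * ((Finset.univ.filter (fun i => ω i ∈ A)).card : ℝ) / (T : ℝ) - (A.card : ℝ)
        = N / T * X ω := by
      rw [hAp]
      simp only [X]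
      field_simp
    rw [e1, abs_mul, abs_of_pos (by positivity : 0 < N / (T : ℝ)), hAp] at h1
    have h2 : ε * p * T < |X ω| := by
      have e2 : ε * (p * N) = N / T * (ε * p * T) := by
        field_simp
      rw [e2] at h1
      exact lt_of_mul_lt_mul_left h1 (by positivity)
    have h3 : s * (ε * p * T) ≤ s * |X ω| := mul_le_mul_of_nonneg_left h2.le hs0.le
    have h4 : Real.exp (s * (ε * p * T)) ≤ Real.exp (s * X ω) + Real.exp (-s * X ω) := by
      refine (Real.exp_le_exp.2 h3).trans ?_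
      rcases abs_cases (X ω) with ⟨h5, _⟩ | ⟨h5, _⟩
      · rw [h5]
        linarith [Real.exp_pos (-s * X ω)]
      · rw [h5]
        have : s * -X ω = -s * X ω := by ring
        rw [this]
        linarith [Real.exp_pos (s * X ω)]
    rw [Real.exp_neg, ← div_eq_inv_mul, le_div_iff₀ (Real.exp_pos _), one_mul]
    exact h4
  have hcard : ((Finset.univ.filter (fun ω : Fin T → Ω =>
      ε * (A.card : ℝ) <
        |N * ((Finset.univ.filter (fun i => ω i ∈ A)).card : ℝ) / (T : ℝ)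
          - (A.card : ℝ)|)).card : ℝ)
      ≤ ∑ ω : Fin T → Ω, Real.exp (-(s * (ε * p * T))) *
          (Real.exp (s * X ω) + Real.exp (-s * X ω)) := by
    rw [Finset.card_eq_sum_ones]
    push_cast
    refine (Finset.sum_le_sum hbad).trans ?_
    exact Finset.sum_le_sum_of_subset_of_nonneg (Finset.filter_subset _ _)
      fun ω _ _ => by positivity
  refine hcard.trans ?_
  rw [← Finset.mul_sum, Finset.sum_add_distrib]
  have m1 := m0 s
  have m2 := m0 (-s)
  have m3 : (-s) ^ 2 = s ^ 2 := by ring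
  rw [m3] at m2
  have hlog : Real.log (2 / δ) ≤ 2 * ε ^ 2 * p ^ 2 * T := by
    rcases le_or_gt (Real.log (2 / δ)) 0 with h0 | h0
    · exact h0.trans (by positivity)
    · rw [div_le_iff₀ (by positivity)] at hT2
      have h5 : (1 / Q) ^ 2 ≤ p ^ 2 := pow_le_pow_left₀ (by positivity) hpQ 2
      have h6 : Real.log (2 / δ) = (1 / Q) ^ 2 * (Q ^ 2 * Real.log (2 / δ)) := by
        field_simp
      rw [h6]
      calc (1 / Q) ^ 2 * (Q ^ 2 * Real.log (2 / δ))
          ≤ (1 / Q) ^ 2 * (T * (2 * ε ^ 2)) := mul_le_mul_of_nonneg_left hT2 (by positivity)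
        _ ≤ p ^ 2 * (T * (2 * ε ^ 2)) := mul_le_mul_of_nonneg_right h5 (by positivity)
        _ = 2 * ε ^ 2 * p ^ 2 * T := by ring
  have hexp : 2 * Real.exp (-(s * (ε * p * T)) + T * (s ^ 2 / 8)) ≤ δ := by
    have e3 : -(s * (ε * p * T)) + T * (s ^ 2 / 8) = -(2 * ε ^ 2 * p ^ 2 * T) := by
      rw [hs]
      ring
    rw [e3]
    have h7 : Real.exp (-(2 * ε ^ 2 * p ^ 2 * T)) ≤ Real.exp (-Real.log (2 / δ)) :=
      Real.exp_le_exp.2 (by linarith)
    rw [Real.exp_neg (Real.log (2 / δ)), Real.exp_log (by positivity)] at h7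
    have h8 : (2 / δ)⁻¹ = δ / 2 := by
      rw [inv_div]
    rw [h8] at h7
    linarith
  calc Real.exp (-(s * (ε * p * T))) *
        (∑ ω, Real.exp (s * X ω) + ∑ ω, Real.exp (-s * X ω))
      ≤ Real.exp (-(s * (ε * p * T))) *
        (N ^ T * Real.exp (T * (s ^ 2 / 8)) + N ^ T * Real.exp (T * (s ^ 2 / 8))) :=
        mul_le_mul_of_nonneg_left (add_le_add m1 m2) (Real.exp_pos _).le
    _ = (2 * Real.exp (-(s * (ε * p * T)) + T * (s ^ 2 / 8))) * N ^ T := by
        rw [Real.exp_add]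
        ring
    _ ≤ δ * N ^ T := mul_le_mul_of_nonneg_right hexp (by positivity)

end Vale.Agent.P317
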