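import Mathlib

/-! # P317: the uniform matroid -/

namespace Vale.Agent.P317

open Set Matroid

/-- there is a matroid on `Fin n` whose bases are the `r`-subsets -/
theorem exists_unif (n r : ℕ) (hr : r ≤ n) :
    ∃ M : Matroid (Fin n), M.E = univ ∧ ∀ B : Set (Fin n), M.IsBase B ↔ B.ncard = r := by
  have hex : ∃ B : Set (Fin n), B.ncard = r := by
    obtain ⟨s, _, hs⟩ := Finset.exists_subset_card_eq
      (s := (Finset.univ : Finset (Fin n))) (n := r) (by simpa using hr)
    exact ⟨(s : Set (Fin n)), by rw [Set.ncard_coe_finset, hs]⟩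
  have hexch : ExchangeProperty (fun B : Set (Fin n) => B.ncard = r) := by
    intro X Y hX hY a ha
    have hns : ¬ Y ⊆ X := by
      intro hsub
      have hXY : Y = X := Set.eq_of_subset_of_ncard_le hsub (by rw [hX, hY]) X.toFinite
      exact ha.2 (hXY ▸ ha.1)
    obtain ⟨b, hbY, hbX⟩ := Set.not_subset.1 hns
    refine ⟨b, ⟨hbY, hbX⟩, ?_⟩
    have h1 : b ∉ X \ {a} := fun h => hbX h.1
    show (insert b (X \ {a})).ncard = r
    rw [Set.ncard_insert_of_notMem h1 (Set.toFinite _), Set.ncard_sdiff_singleton_add_one ha.1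
      X.toFinite, hX]
  exact ⟨Matroid.ofIsBaseOfFinite (Set.finite_univ (α := Fin n)) (fun B => B.ncard = r) hex hexch
    (fun B _ => Set.subset_univ B), rfl, fun B => Iff.rfl⟩

end Vale.Agent.P317
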