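import Vale.Agent.P317.Defs
import Vale.Agent.P317.Est
import Vale.Agent.P317.Count
import Vale.Agent.P317.Unif

/-! # P317: the estimators -/

namespace Vale.Agent.P317

open Set Matroid

variable {n : ℕ}

theorem mem_bases {M : Matroid (Fin n)} {S : Finset (Fin n)} :
    S ∈ bases M ↔ M.IsBase (S : Set (Fin n)) := by
  classical
  simp [bases]

theorem mem_commonBases {M1 M2 : Matroid (Fin n)} {S : Finset (Fin n)} :
    S ∈ commonBases M1 M2 ↔ M1.IsBase (S : Set (Fin n)) ∧ M2.IsBase (S : Set (Fin n)) := by
  classical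
  rw [commonBases, Finset.mem_inter, mem_bases, mem_bases]

theorem ncard_eq_card (P : Set (Fin n) → Prop) (F : Finset (Finset (Fin n)))
    (h : ∀ S : Finset (Fin n), S ∈ F ↔ P (S : Set (Fin n))) :
    {B : Set (Fin n) | P B}.ncard = F.card := by
  classical
  have h1 : {B : Set (Fin n) | P B} =
      (fun S : Finset (Fin n) => (S : Set (Fin n))) '' (F : Set (Finset (Fin n))) := by
    ext B
    constructor
    · intro hB
      refine ⟨B.toFinite.toFinset, ?_, by simp⟩
      have : P ((B.toFinite.toFinset : Finset (Fin n)) : Set (Fin n)) := by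
        simpa using hB
      exact (h _).2 this
    · rintro ⟨S, hS, rfl⟩
      exact (h S).1 hS
  rw [h1, Set.ncard_image_of_injective _ Finset.coe_injective, Set.ncard_coe_finset]

theorem HasRank.ncard {M : Matroid (Fin n)} {r : ℕ} (h : HasRank M r) (B : Set (Fin n))
    (hB : M.IsBase B) : B.ncard = r := by
  classical
  have h1 := h.2 B.toFinite.toFinset (mem_bases.2 (by simpa using hB))
  rw [Set.ncard_eq_toFinset_card B B.toFinite]
  exact h1

theorem KPaving.set {M : Matroid (Fin n)} {r k : ℕ} (h : KPaving M r k) (I : Set (Fin n))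
    (hI : I.ncard + k ≤ r) : M.Indep I := by
  classical
  have h1 := h I.toFinite.toFinset (by rw [← Set.ncard_eq_toFinset_card I I.toFinite]; exact hI)
  simpa using h1

theorem isBase_of_indep {M : Matroid (Fin n)} {r : ℕ} (h : HasRank M r) {S : Finset (Fin n)}
    (hS : S.card = r) (hI : M.Indep (S : Set (Fin n))) : M.IsBase (S : Set (Fin n)) := by
  obtain ⟨B, hB, hSB⟩ := hI.exists_isBase_superset
  have h1 := h.ncard B hB
  have h2 : (S : Set (Fin n)) = B := by
    refine Set.eq_of_subset_of_ncard_le hSB ?_ (Set.toFinite _)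
    rw [h1, Set.ncard_coe_finset, hS]
  rw [h2]
  exact hB

theorem ratio_card {r k : ℕ} {M1 M2 : Matroid (Fin n)} (h1 : M1.E = univ) (h2 : HasRank M2 r)
    (hp : KPaving M2 r k) (hne : (commonBases M1 M2).Nonempty) :
    (bases M1).card ≤ (n + 1) ^ (4 * k) * (commonBases M1 M2).card := by
  obtain ⟨S, hS⟩ := hne
  have h := ratio (r := r) h1 h2.1 h2.ncard hp.set ⟨S, mem_commonBases.1 hS⟩
  rwa [ncard_eq_card (fun B => M1.IsBase B) (bases M1) (fun S => mem_bases),
    ncard_eq_card (fun B => M1.IsBase B ∧ M2.IsBase B) (commonBases M1 M2)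
      (fun S => mem_commonBases)] at h

theorem accurate {r : ℕ} {M1 M2 : Matroid (Fin n)} (h1 : HasRank M1 r) (h2 : HasRank M2 r)
    (F : Finset (Finset (Fin n))) (hF : ∀ S ∈ F, S.card = r) (hcF : commonBases M1 M2 ⊆ F)
    (Q : ℝ) (hQ : 1 ≤ Q)
    (hFQ : (commonBases M1 M2).Nonempty → (F.card : ℝ) ≤ Q * ((commonBases M1 M2).card : ℝ))
    (ε δ : ℝ) (hε : 0 < ε) (hδ : 0 < δ) (hδ1 : δ < 1) (T : ℕ)
    (hT : Q ^ 2 * Real.log (2 / δ) / (2 * ε ^ 2) ≤ (T : ℝ)) : Accurate F M1 M2 T ε δ := by
  classical
  have hmem : ∀ S ∈ F, (M1.Indep (S : Set (Fin n)) ∧ M2.Indep (S : Set (Fin n))) ↔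
      S ∈ commonBases M1 M2 := by
    intro S hS
    rw [mem_commonBases]
    exact ⟨fun h => ⟨isBase_of_indep h1 (hF S hS) h.1, isBase_of_indep h2 (hF S hS) h.2⟩,
      fun h => ⟨h.1.indep, h.2.indep⟩⟩
  have hcardpi : (Fintype.piFinset (fun _ : Fin T => F)).card = F.card ^ T := by
    rw [Fintype.card_piFinset]
    simp
  unfold Accurate
  rcases (commonBases M1 M2).eq_empty_or_nonempty with he | hne
  · have hz : ∀ ω ∈ Fintype.piFinset (fun _ : Fin T => F), hits M1 M2 ω = 0 := by
      intro ω hω
      rw [Fintype.mem_piFinset] at hω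
      unfold hits
      rw [Finset.card_eq_zero, Finset.filter_eq_empty_iff]
      intro i _ hi
      have := (hmem (ω i) (hω i)).1 hi
      rw [he] at this
      exact absurd this (Finset.notMem_empty _)
    rw [Finset.filter_true_of_mem]
    · rw [hcardpi]
      push_cast
      have : (0 : ℝ) ≤ (F.card : ℝ) ^ T := by positivity
      nlinarith
    · intro ω hω
      rw [hz ω hω, he]
      simp
  · have hlog : 0 < Real.log (2 / δ) := Real.log_pos (by rw [lt_div_iff₀ hδ]; linarith)
    have hTpos : 0 < T := by
      have : (0 : ℝ) < Q ^ 2 * Real.log (2 / δ) / (2 * ε ^ 2) := by positivity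
      exact_mod_cast this.trans_le hT
    let A : Finset F := Finset.univ.filter (fun S => (S : Finset (Fin n)) ∈ commonBases M1 M2)
    have hA : A.card = (commonBases M1 M2).card := by
      rw [← Finset.card_image_of_injective A Subtype.val_injective]
      congr 1
      ext S
      simp only [A, Finset.mem_image, Finset.mem_filter, Finset.mem_univ, true_and,
        Subtype.exists, exists_and_right, exists_eq_right]
      exact ⟨fun ⟨_, h⟩ => h, fun h => ⟨hcF h, h⟩⟩
    have hcF' : Fintype.card F = F.card := Fintype.card_coe F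
    have hest := estimator (Ω := F) A Q hQ (by rw [hcF', hA]; exact hFQ hne) ε δ hε hδ T hTpos hT
    rw [hcF', hA] at hest
    set bad := Finset.univ.filter (fun ω : Fin T → F => ε * ((commonBases M1 M2).card : ℝ) <
        |(F.card : ℝ) * ((Finset.univ.filter (fun i => ω i ∈ A)).card : ℝ) / (T : ℝ)
          - ((commonBases M1 M2).card : ℝ)|) with hbad
    have hsplit : bad.card + badᶜ.card = F.card ^ T := by
      rw [Finset.card_add_card_compl, Fintype.card_fun, hcF', Fintype.card_fin]
    have hle : badᶜ.card ≤ ((Fintype.piFinset (fun _ : Fin T => F)).filter (fun ω =>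
      (1 - ε) * ((commonBases M1 M2).card : ℝ) ≤ (F.card : ℝ) * (hits M1 M2 ω : ℝ) / (T : ℝ) ∧
      (F.card : ℝ) * (hits M1 M2 ω : ℝ) / (T : ℝ) ≤
        (1 + ε) * ((commonBases M1 M2).card : ℝ))).card := by
      refine Finset.card_le_card_of_injOn (fun φ i => (φ i : Finset (Fin n))) ?_ ?_
      · intro φ hφ
        have hφ' : φ ∉ bad := by simpa using hφ
        simp only [hbad, Finset.mem_filter, Finset.mem_univ, true_and, not_lt] at hφ'
        have hh : hits M1 M2 (fun i => (φ i : Finset (Fin n))) =
            (Finset.univ.filter (fun i => φ i ∈ A)).card := by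
          unfold hits
          congr 1
          ext i
          simp only [Finset.mem_filter, Finset.mem_univ, true_and, A]
          exact hmem _ (φ i).2
        simp only [Finset.coe_filter, Set.mem_ofPred_eq, Fintype.mem_piFinset]
        refine ⟨fun i => (φ i).2, ?_⟩
        rw [hh]
        have := abs_le.1 hφ'
        constructor <;> linarith [this.1, this.2]
      · intro φ _ ψ _ h
        funext i
        exact Subtype.ext (congrFun h i)
    have hle' : (badᶜ.card : ℝ) ≤ _ := Nat.cast_le.2 hle
    refine le_trans ?_ hle'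
    have h3 : (bad.card : ℝ) + (badᶜ.card : ℝ) = (F.card : ℝ) ^ T := by exact_mod_cast hsplit
    nlinarith [hest]

theorem choose_le {r k : ℕ} {M : Matroid (Fin n)} (h : HasRank M r) (hp : KPaving M r k)
    (hrn : r ≤ n) : n.choose r ≤ (n + 1) ^ (4 * k) * (bases M).card := by
  classical
  obtain ⟨U, hUE, hU⟩ := exists_unif n r hrn
  obtain ⟨B, hB⟩ := M.exists_isBase
  have hne : (commonBases U M).Nonempty := by
    refine ⟨B.toFinite.toFinset, mem_commonBases.2 ⟨?_, ?_⟩⟩
    · rw [hU]
      simpa using h.ncard B hB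
    · simpa using hB
  have h1 := ratio_card hUE h hp hne
  have h2 : (bases U).card = n.choose r := by
    have : bases U = Finset.powersetCard r Finset.univ := by
      ext S
      rw [mem_bases, hU, Set.ncard_coe_finset, Finset.mem_powersetCard]
      simp
    rw [this, Finset.card_powersetCard, Finset.card_univ, Fintype.card_fin]
  have h3 : (commonBases U M).card ≤ (bases M).card :=
    Finset.card_le_card Finset.inter_subset_right
  rw [← h2]
  exact h1.trans (Nat.mul_le_mul_left _ h3)

end Vale.Agent.P317
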