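import Mathlib

/-! # P317: exchanges towards a common base -/

namespace Vale.Agent.P317

open Set Matroid

variable {α : Type*}

/-- single exchange -/
theorem single {M : Matroid α} {B : Set α} (hE : M.E = univ) (hB : M.IsBase B) {b y : α}
    (hb : b ∉ B) (h : b ∉ M.closure (B \ {y})) : M.IsBase (insert b (B \ {y})) := by
  refine hB.exchange_isBase_of_indep hb ?_
  refine ((hB.indep.sdiff {y}).notMem_closure_iff_of_notMem (fun hh => hb hh.1)
    (by rw [hE]; trivial)).1 h

/-- double exchange -/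
theorem double {M : Matroid α} {B : Set α} (hE : M.E = univ) (hB : M.IsBase B)
    {b1 b2 y1 y2 : α} (hb1 : b1 ∉ B) (hb2 : b2 ∉ B) (hb : b1 ≠ b2)
    (h1 : b1 ∉ M.closure (B \ {y1})) (h2 : b2 ∉ M.closure (B \ {y2}))
    (h12 : b1 ∈ M.closure (B \ {y2})) :
    M.IsBase (insert b1 ((insert b2 (B \ {y2})) \ {y1})) := by
  have hB2 : M.IsBase (insert b2 (B \ {y2})) := single hE hB hb2 h2
  refine single hE hB2 (by simp [hb, hb1]) fun hcl => h1 ?_
  have hind : M.Indep ((insert b2 (B \ {y2})) \ {y1} ∪ (B \ {y2})) :=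
    hB2.indep.subset (union_subset sdiff_subset (subset_insert _ _))
  have hmem : b1 ∈ M.closure (((insert b2 (B \ {y2})) \ {y1}) ∩ (B \ {y2})) := by
    rw [hind.closure_inter_eq_inter_closure]
    exact ⟨hcl, h12⟩
  refine M.closure_subset_closure ?_ hmem
  rintro z ⟨⟨-, hz1⟩, hz2, -⟩
  exact ⟨hz2, hz1⟩

variable [Fintype α] [DecidableEq α]

/-- the elements `y` of a base `B` which cannot be exchanged for `b` are few -/
theorem miss_le {M : Matroid α} {B : Set α} (hE : M.E = univ) (hB : M.IsBase B) {r k : ℕ}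
    (hr : B.ncard = r) (hk : ∀ I : Set α, I.ncard + k ≤ r → M.Indep I) {b : α} (hb : b ∉ B) :
    {y | y ∈ B ∧ b ∈ M.closure (B \ {y})}.ncard ≤ k := by
  have hcl : b ∈ M.closure B := by rw [hB.closure_eq, hE]; trivial
  have hC := hB.indep.fundCircuit_isCircuit hcl hb
  set C := M.fundCircuit b B with hCdef
  have hbC : b ∈ C := M.mem_fundCircuit b B
  have h1 : ¬ (C.ncard + k ≤ r) := fun h => hC.dep.not_indep (hk C h)
  have hsub : C \ {b} ⊆ B := by
    rintro z ⟨hz, hzb⟩
    rcases M.fundCircuit_subset_insert b B hz with h | h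
    · exact absurd h hzb
    · exact h
  have h2 : (C \ {b}).ncard + 1 = C.ncard := Set.ncard_sdiff_singleton_add_one hbC
  have h3 : {y | y ∈ B ∧ b ∈ M.closure (B \ {y})} ⊆ B \ (C \ {b}) := by
    rintro y ⟨hy, hcy⟩
    refine ⟨hy, fun hyC => ?_⟩
    have h4 := (hB.indep.mem_fundCircuit_iff hcl hb).1 hyC.1
    have hne : b ≠ y := fun h => hyC.2 h.symm
    rw [← insert_sdiff_singleton_comm hne] at h4
    exact ((hB.indep.sdiff {y}).notMem_closure_iff_of_notMem (fun hh => hb hh.1)
      (by rw [hE]; trivial)).2 h4 hcy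
  have h5 : (B \ (C \ {b})).ncard + (C \ {b}).ncard = B.ncard :=
    Set.ncard_sdiff_add_ncard_of_subset hsub
  have h6 := Set.ncard_le_ncard h3 (Set.toFinite _)
  omega

/-- Hall matching of `B \ Bs` into `Bs \ B` -/
theorem matching {M : Matroid α} {B Bs : Set α} (hE : M.E = univ) (hB : M.IsBase B)
    (hBs : M.IsBase Bs) :
    ∃ f : (B \ Bs : Set α) → α, Function.Injective f ∧
      ∀ b : (B \ Bs : Set α), f b ∈ Bs \ B ∧ (b : α) ∉ M.closure (Bs \ {f b}) := by
  classical
  let t : (B \ Bs : Set α) → Finset α := fun b =>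
    Finset.univ.filter (fun y => y ∈ Bs \ B ∧ (b : α) ∉ M.closure (Bs \ {y}))
  have hall : ∀ s : Finset (B \ Bs : Set α), s.card ≤ (s.biUnion t).card := by
    intro s
    set T : Set α := (Bs ∩ B) ∪ (s.biUnion t : Set α) with hT
    have hcl : ∀ b ∈ s, (b : α) ∈ M.closure T := by
      intro b hb
      have hbE : (b : α) ∈ M.closure Bs := by rw [hBs.closure_eq, hE]; trivial
      have hC := hBs.indep.fundCircuit_isCircuit hbE b.2.2
      have hbC : (b : α) ∈ M.fundCircuit b Bs := M.mem_fundCircuit b Bs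
      have h1 : (b : α) ∈ M.closure (M.fundCircuit b Bs \ {(b : α)}) :=
        hC.mem_closure_sdiff_singleton_of_mem hbC
      refine M.closure_subset_closure ?_ h1
      rintro z ⟨hz, hzb⟩
      have hzBs : z ∈ Bs := by
        rcases M.fundCircuit_subset_insert (b : α) Bs hz with h | h
        · exact absurd h hzb
        · exact h
      by_cases hzB : z ∈ B
      · exact Or.inl ⟨hzBs, hzB⟩
      · refine Or.inr ?_
        simp only [Finset.coe_biUnion, Set.mem_iUnion, Finset.mem_coe]
        refine ⟨b, hb, ?_⟩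
        simp only [t, Finset.mem_filter, Finset.mem_univ, true_and]
        refine ⟨⟨hzBs, hzB⟩, ?_⟩
        have h4 := (hBs.indep.mem_fundCircuit_iff hbE b.2.2).1 hz
        have hne : (b : α) ≠ z := fun h => hzb h.symm
        rw [← insert_sdiff_singleton_comm hne] at h4
        exact ((hBs.indep.sdiff {z}).notMem_closure_iff_of_notMem (fun hh => b.2.2 hh.1)
          (by rw [hE]; trivial)).2 h4
    have hS : ((fun b : (B \ Bs : Set α) => (b : α)) '' (s : Set (B \ Bs : Set α))) ∪ (Bs ∩ B)
        ⊆ B := by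
      rintro z (⟨b, -, rfl⟩ | hz)
      · exact b.2.1
      · exact hz.2
    have hScl : ((fun b : (B \ Bs : Set α) => (b : α)) '' (s : Set (B \ Bs : Set α))) ∪ (Bs ∩ B)
        ⊆ M.closure T := by
      rintro z (⟨b, hb, rfl⟩ | hz)
      · exact hcl b hb
      · exact M.subset_closure T (by rw [hE]; exact subset_univ _) (Or.inl hz)
    have h1 := (hB.indep.subset hS).eRk_eq_encard
    have h2 := M.eRk_mono hScl
    rw [M.eRk_closure_eq, h1] at h2
    have h3 := h2.trans (M.eRk_le_encard T)
    have h4 : (((fun b : (B \ Bs : Set α) => (b : α)) '' (s : Set (B \ Bs : Set α))) ∪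
        (Bs ∩ B)).ncard ≤ T.ncard := by
      rw [Set.ncard, Set.ncard]
      exact ENat.toNat_le_toNat h3 (by simp [Set.encard_ne_top_iff, Set.toFinite])
    have h5 : (((fun b : (B \ Bs : Set α) => (b : α)) '' (s : Set (B \ Bs : Set α))) ∪
        (Bs ∩ B)).ncard = s.card + (Bs ∩ B).ncard := by
      rw [Set.ncard_union_eq ?_ (Set.toFinite _) (Set.toFinite _),
        Set.ncard_image_of_injective _ Subtype.val_injective, Set.ncard_coe_finset]
      rw [Set.disjoint_left]
      rintro z ⟨b, -, rfl⟩ hz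
      exact b.2.2 hz.1
    have h6 : T.ncard ≤ (Bs ∩ B).ncard + (s.biUnion t).card := by
      refine (Set.ncard_union_le _ _).trans ?_
      rw [Set.ncard_coe_finset]
    omega
  obtain ⟨f, hf, hft⟩ := (Finset.all_card_le_biUnion_card_iff_exists_injective t).1 hall
  refine ⟨f, hf, fun b => ?_⟩
  have := hft b
  simp only [t, Finset.mem_filter, Finset.mem_univ, true_and] at this
  exact this

end Vale.Agent.P317
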