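import Mathlib

/-! # P317: definitions -/

namespace Vale.Agent.P317

variable {n : ℕ}

open Classical in
/-- the bases of the matroid `M` -/
noncomputable def bases (M : Matroid (Fin n)) : Finset (Finset (Fin n)) :=
  Finset.univ.filter (fun S => M.IsBase (S : Set (Fin n)))

/-- the common bases of the matroids `M1`, `M2` -/
noncomputable def commonBases (M1 M2 : Matroid (Fin n)) : Finset (Finset (Fin n)) :=
  bases M1 ∩ bases M2

/-- `M` is a matroid on all of `Fin n`, and its rank is `r` -/
def HasRank (M : Matroid (Fin n)) (r : ℕ) : Prop :=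
  M.E = Set.univ ∧ ∀ S ∈ bases M, S.card = r

/-- every set of at most `r - k` elements is independent; for a matroid of rank `r` and `k = 1`
this says that the matroid is paving -/
def KPaving (M : Matroid (Fin n)) (r k : ℕ) : Prop :=
  ∀ I : Finset (Fin n), I.card + k ≤ r → M.Indep (I : Set (Fin n))

open Classical in
/-- the number of samples `ω i` for which both independence oracles answer yes -/
noncomputable def hits (M1 M2 : Matroid (Fin n)) {T : ℕ} (ω : Fin T → Finset (Fin n)) : ℕ :=
  (Finset.univ.filter (fun i => M1.Indep (ω i : Set (Fin n)) ∧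
    M2.Indep (ω i : Set (Fin n)))).card

open Classical in
/-- if `T` sets are drawn independently and uniformly from the family `F`, then with probability
at least `1 - δ` the estimate `|F| * hits / T` of the number `N` of common bases satisfies
`(1 - ε) N ≤ |F| * hits / T ≤ (1 + ε) N` (stated by counting the `T`-tuples) -/
def Accurate (F : Finset (Finset (Fin n))) (M1 M2 : Matroid (Fin n)) (T : ℕ) (ε δ : ℝ) : Prop :=
  (1 - δ) * (F.card : ℝ) ^ T ≤
    (((Fintype.piFinset (fun _ : Fin T => F)).filter (fun ω =>
      (1 - ε) * ((commonBases M1 M2).card : ℝ) ≤ (F.card : ℝ) * (hits M1 M2 ω : ℝ) / (T : ℝ) ∧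
      (F.card : ℝ) * (hits M1 M2 ω : ℝ) / (T : ℝ) ≤
        (1 + ε) * ((commonBases M1 M2).card : ℝ))).card : ℝ)

end Vale.Agent.P317
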