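import Vale.Agent.P317.Defs

/-! # P317: almost copaving matroids -/

namespace Vale.Agent.P317

variable {n : ℕ}

/-- every set of at least `r + k` elements is spanning; for a matroid `M` of rank `r` this says
that every set of at most `n - r - k` elements is independent in the dual of `M` -/
def KCopaving (M : Matroid (Fin n)) (r k : ℕ) : Prop :=
  ∀ I : Finset (Fin n), r + k ≤ I.card → M.Spanning (I : Set (Fin n))

end Vale.Agent.P317
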