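import Vale.Agent.P317.Core

/-! # P317: every base of `M₁` is close to a common base -/

namespace Vale.Agent.P317

open Set Matroid

variable {α : Type*} [Fintype α]

theorem dist_le {M1 M2 : Matroid α} (hE1 : M1.E = univ) (hE2 : M2.E = univ) {r k : ℕ}
    (hr2 : ∀ B, M2.IsBase B → B.ncard = r) (hk : ∀ I : Set α, I.ncard + k ≤ r → M2.Indep I)
    {B : Set α} (hB : M1.IsBase B) (hne : ∃ C, M1.IsBase C ∧ M2.IsBase C) :
    ∃ C, M1.IsBase C ∧ M2.IsBase C ∧ (C \ B).ncard ≤ 2 * k ∧ (B \ C).ncard ≤ 2 * k := by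
  classical
  obtain ⟨Bs, ⟨hs1, hs2⟩, hmin⟩ := Set.exists_min_image
    {C : Set α | M1.IsBase C ∧ M2.IsBase C} (fun C => (C \ B).ncard) (Set.toFinite _) hne
  obtain ⟨f, hf, hfp⟩ := matching hE1 hB hs1
  -- no single exchange
  have hone : ∀ b : (B \ Bs : Set α), ∀ y ∈ Bs \ B, (b : α) ∉ M1.closure (Bs \ {y}) →
      (b : α) ∈ M2.closure (Bs \ {y}) := by
    intro b y hy h1
    by_contra h2
    have hc1 := single hE1 hs1 b.2.2 h1
    have hc2 := single hE2 hs2 b.2.2 h2
    have hm := hmin _ ⟨hc1, hc2⟩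
    have hsub : (insert (b : α) (Bs \ {y})) \ B ⊆ (Bs \ B) \ {y} := by
      rintro z ⟨rfl | hz, hzB⟩
      · exact absurd b.2.1 hzB
      · exact ⟨⟨hz.1, hzB⟩, hz.2⟩
    have hlt : ((Bs \ B) \ {y}).ncard < (Bs \ B).ncard :=
      Set.ncard_sdiff_singleton_lt_of_mem hy (Set.toFinite _)
    have hle := Set.ncard_le_ncard hsub (Set.toFinite _)
    have : (Bs \ B).ncard ≤ ((insert (b : α) (Bs \ {y})) \ B).ncard := hm
    omega
  have hdiag : ∀ b, (b : α) ∈ M2.closure (Bs \ {f b}) := fun b =>
    hone b (f b) (hfp b).1 (hfp b).2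
  -- no double exchange
  have hpair : ∀ b b' : (B \ Bs : Set α), b ≠ b' →
      (b : α) ∈ M2.closure (Bs \ {f b'}) ∨ (b' : α) ∈ M2.closure (Bs \ {f b}) := by
    intro b b' hbb
    by_contra hcon
    push Not at hcon
    obtain ⟨h2a, h2b⟩ := hcon
    have hbne : (b : α) ≠ b' := fun h => hbb (Subtype.ext h)
    have hfne : f b ≠ f b' := fun h => hbb (hf h)
    have h1 : (b : α) ∈ M1.closure (Bs \ {f b'}) := by
      by_contra h
      exact h2a (hone b (f b') (hfp b').1 h)
    have hc1 := double hE1 hs1 b.2.2 b'.2.2 hbne (hfp b).2 (hfp b').2 h1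
    have hc2 := double hE2 hs2 b.2.2 b'.2.2 hbne h2a h2b (hdiag b)
    have heq : (insert (b : α) ((insert (b' : α) (Bs \ {f b})) \ {f b'})) =
        (insert (b : α) ((insert (b' : α) (Bs \ {f b'})) \ {f b})) := by
      have hn1 : (b' : α) ≠ f b := fun h => b'.2.2 (h ▸ (hfp b).1.1)
      have hn2 : (b' : α) ≠ f b' := fun h => b'.2.2 (by rw [h]; exact (hfp b').1.1)
      rw [← insert_sdiff_singleton_comm hn1, ← insert_sdiff_singleton_comm hn2,
        sdiff_sdiff_comm]
    rw [heq] at hc2
    have hm := hmin _ ⟨hc1, hc2⟩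
    have hsub : (insert (b : α) ((insert (b' : α) (Bs \ {f b'})) \ {f b})) \ B ⊆
        (Bs \ B) \ {f b} := by
      rintro z ⟨rfl | ⟨rfl | hz, hz2⟩, hzB⟩
      · exact absurd b.2.1 hzB
      · exact absurd b'.2.1 hzB
      · exact ⟨⟨hz.1, hzB⟩, hz2⟩
    have hlt : ((Bs \ B) \ {f b}).ncard < (Bs \ B).ncard :=
      Set.ncard_sdiff_singleton_lt_of_mem (hfp b).1 (Set.toFinite _)
    have hle := Set.ncard_le_ncard hsub (Set.toFinite _)
    have : (Bs \ B).ncard ≤
      ((insert (b : α) ((insert (b' : α) (Bs \ {f b'})) \ {f b})) \ B).ncard := hm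
    omega
  -- counting
  let d : ℕ := Fintype.card (B \ Bs : Set α)
  let R : (B \ Bs : Set α) → (B \ Bs : Set α) → Prop := fun b b' =>
    (b : α) ∈ M2.closure (Bs \ {f b'})
  have hrow : ∀ b, (Finset.univ.filter (fun b' => R b b')).card ≤ k := by
    intro b
    have h1 : (Finset.univ.filter (fun b' => R b b')).card =
        ((Finset.univ.filter (fun b' => R b b')).image f).card :=
      (Finset.card_image_of_injective _ hf).symm
    rw [h1, ← Set.ncard_coe_finset]
    refine (Set.ncard_le_ncard ?_ (Set.toFinite _)).trans (miss_le hE2 hs2 (hr2 _ hs2) hk b.2.2)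
    intro y hy
    simp only [Finset.coe_image, Set.mem_image, Finset.mem_coe, Finset.mem_filter,
      Finset.mem_univ, true_and] at hy
    obtain ⟨b', hb', rfl⟩ := hy
    exact ⟨(hfp b').1.1, hb'⟩
  have hsum : ∑ b : (B \ Bs : Set α), (Finset.univ.filter (fun b' => R b b')).card ≤ d * k := by
    refine (Finset.sum_le_sum fun b _ => hrow b).trans ?_
    simp [d]
  have hswap : ∑ b : (B \ Bs : Set α), (Finset.univ.filter (fun b' => R b b')).card =
      ∑ b : (B \ Bs : Set α), (Finset.univ.filter (fun b' => R b' b)).card := by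
    simp only [Finset.card_filter]
    exact Finset.sum_comm
  have hlow : ∀ b : (B \ Bs : Set α), d + 1 ≤ (Finset.univ.filter (fun b' => R b b')).card +
      (Finset.univ.filter (fun b' => R b' b)).card := by
    intro b
    rw [← Finset.card_union_add_card_inter]
    have hu : (Finset.univ.filter (fun b' => R b b')) ∪ (Finset.univ.filter (fun b' => R b' b)) =
        Finset.univ := by
      ext b'
      simp only [Finset.mem_union, Finset.mem_filter, Finset.mem_univ, true_and, iff_true]
      by_cases h : b = b'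
      · subst h
        exact Or.inl (hdiag b)
      · exact hpair b b' h
    have hi : 1 ≤ ((Finset.univ.filter (fun b' => R b b')) ∩
        (Finset.univ.filter (fun b' => R b' b))).card := by
      refine Finset.card_pos.2 ⟨b, ?_⟩
      simp only [Finset.mem_inter, Finset.mem_filter, Finset.mem_univ, true_and, and_self]
      exact hdiag b
    rw [hu]
    have : (Finset.univ : Finset (B \ Bs : Set α)).card = d := Finset.card_univ
    omega
  have hd : d ≤ 2 * k := by
    have h1 : ∑ _b : (B \ Bs : Set α), (d + 1) ≤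
        ∑ b : (B \ Bs : Set α), ((Finset.univ.filter (fun b' => R b b')).card +
          (Finset.univ.filter (fun b' => R b' b)).card) := Finset.sum_le_sum fun b _ => hlow b
    have h1a : ∑ b : (B \ Bs : Set α), ((Finset.univ.filter (fun b' => R b b')).card +
          (Finset.univ.filter (fun b' => R b' b)).card) ≤ d * k + d * k := by
      rw [Finset.sum_add_distrib, ← hswap]
      exact Nat.add_le_add hsum hsum
    have h1b : ∑ _b : (B \ Bs : Set α), (d + 1) = d * (d + 1) := by
      rw [Finset.sum_const, smul_eq_mul, Finset.card_univ]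
    have h2 : d * (d + 1) ≤ d * k + d * k := by
      rw [← h1b]
      exact h1.trans h1a
    rcases Nat.eq_zero_or_pos d with h0 | h0
    · omega
    · have h3 : d * (d + 1) ≤ d * (2 * k) := by linarith [mul_comm d k]
      have := Nat.le_of_mul_le_mul_left h3 h0
      omega
  have hcard : (B \ Bs).ncard = d := by
    rw [← Nat.card_coe_set_eq, Nat.card_eq_fintype_card]
  have hcomm : (Bs \ B).ncard = (B \ Bs).ncard := by
    rw [Set.ncard, Set.ncard, hs1.encard_sdiff_comm hB]
  exact ⟨Bs, hs1, hs2, by omega, by omega⟩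

end Vale.Agent.P317
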