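import Vale.Agent.P317.Acc
import Vale.Agent.P317.Defs2

/-! # P317: the dual form -/

namespace Vale.Agent.P317

open Set Matroid

variable {n : ℕ}

theorem mem_bases_dual {M : Matroid (Fin n)} (hE : M.E = univ) {S : Finset (Fin n)} :
    S ∈ bases M✶ ↔ Sᶜ ∈ bases M := by
  rw [mem_bases, mem_bases, dual_isBase_iff (by rw [hE]; exact subset_univ _), hE,
    Finset.coe_compl, compl_eq_univ_sdiff]

theorem card_bases_dual {M : Matroid (Fin n)} (hE : M.E = univ) :
    (bases M✶).card = (bases M).card := by
  classical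
  refine Finset.card_bij (fun S _ => Sᶜ) (fun S hS => (mem_bases_dual hE).1 hS)
    (fun S _ S' _ h => compl_injective h) (fun S hS => ⟨Sᶜ, ?_, compl_compl S⟩)
  rw [mem_bases_dual hE, compl_compl]
  exact hS

theorem card_common_dual {M1 M2 : Matroid (Fin n)} (h1 : M1.E = univ) (h2 : M2.E = univ) :
    (commonBases M1✶ M2✶).card = (commonBases M1 M2).card := by
  classical
  have hm : ∀ S : Finset (Fin n), S ∈ commonBases M1✶ M2✶ ↔ Sᶜ ∈ commonBases M1 M2 := by
    intro S
    rw [commonBases, commonBases, Finset.mem_inter, Finset.mem_inter, mem_bases_dual h1,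
      mem_bases_dual h2]
  refine Finset.card_bij (fun S _ => Sᶜ) (fun S hS => (hm S).1 hS)
    (fun S _ S' _ h => compl_injective h) (fun S hS => ⟨Sᶜ, ?_, compl_compl S⟩)
  rw [hm, compl_compl]
  exact hS

theorem HasRank.dual {M : Matroid (Fin n)} {r : ℕ} (h : HasRank M r) : HasRank M✶ (n - r) := by
  refine ⟨by rw [dual_ground, h.1], fun S hS => ?_⟩
  have h1 := h.2 _ ((mem_bases_dual h.1).1 hS)
  rw [Finset.card_compl, Fintype.card_fin] at h1
  have h2 : S.card ≤ n := by simpa using Finset.card_le_univ S
  omega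

theorem KCopaving.dual {M : Matroid (Fin n)} {r k : ℕ} (h : HasRank M r) (hp : KCopaving M r k) :
    KPaving M✶ (n - r) k := by
  intro I hI
  obtain ⟨B, hB⟩ := M.exists_isBase
  have hr := h.ncard B hB
  have hrn : r ≤ n := by
    rw [← hr]
    simpa using Set.ncard_le_ncard (subset_univ B) (Set.toFinite _)
  have hIn : I.card ≤ n := by simpa using Finset.card_le_univ I
  have h1 : M.Spanning ((Iᶜ : Finset (Fin n)) : Set (Fin n)) := by
    refine hp _ ?_
    rw [Finset.card_compl, Fintype.card_fin]
    omega
  have h2 := h1.compl_coindep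
  rw [h.1, Finset.coe_compl, compl_eq_univ_sdiff, sdiff_sdiff_cancel_left (subset_univ _)] at h2
  exact h2

/-- the ratio bound for almost paving or almost copaving `M2` -/
theorem ratio_card' {r k : ℕ} {M1 M2 : Matroid (Fin n)} (h1 : M1.E = univ) (h2 : HasRank M2 r)
    (hp : KPaving M2 r k ∨ KCopaving M2 r k) (hne : (commonBases M1 M2).Nonempty) :
    (bases M1).card ≤ (n + 1) ^ (4 * k) * (commonBases M1 M2).card := by
  rcases hp with hp | hp
  · exact ratio_card h1 h2 hp hne
  · have hne' : (commonBases M1✶ M2✶).Nonempty := by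
      rw [← Finset.card_pos, card_common_dual h1 h2.1]
      exact Finset.card_pos.2 hne
    have h := ratio_card (M1 := M1✶) (M2 := M2✶) (by rw [dual_ground, h1]) h2.dual
      (hp.dual h2) hne'
    rwa [card_bases_dual h1, card_common_dual h1 h2.1] at h

theorem choose_le' {r k : ℕ} {M : Matroid (Fin n)} (h : HasRank M r)
    (hp : KPaving M r k ∨ KCopaving M r k)
    (hrn : r ≤ n) : n.choose r ≤ (n + 1) ^ (4 * k) * (bases M).card := by
  classical
  obtain ⟨U, hUE, hU⟩ := exists_unif n r hrn
  obtain ⟨B, hB⟩ := M.exists_isBase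
  have hne : (commonBases U M).Nonempty := by
    refine ⟨B.toFinite.toFinset, mem_commonBases.2 ⟨?_, ?_⟩⟩
    · rw [hU]
      simpa using h.ncard B hB
    · simpa using hB
  have h1 := ratio_card' hUE h hp hne
  have h2 : (bases U).card = n.choose r := by
    have : bases U = Finset.powersetCard r Finset.univ := by
      ext S
      rw [mem_bases, hU, Set.ncard_coe_finset, Finset.mem_powersetCard]
      simp
    rw [this, Finset.card_powersetCard, Finset.card_univ, Fintype.card_fin]
  have h3 : (commonBases U M).card ≤ (bases M).card :=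
    Finset.card_le_card Finset.inter_subset_right
  rw [← h2]
  exact h1.trans (Nat.mul_le_mul_left _ h3)

end Vale.Agent.P317
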